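import Vale.Agent.P181.Line

/-! The core statement: symmetrized products of powers lie in the power of the span of the
diagonal products. -/

open Polynomial Finset Equiv

namespace Vale.Agent.P181

universe u v

variable {W : Type v} [AddCommGroup W] [Module ℂ W]

section
variable {A : Type u} [CommRing A] [Algebra ℂ A]

theorem step_slots {ι : Type*} [DecidableEq ι] (l : ι → W →ₗ[ℂ] A) (N M : ℕ) (s : Finset ι)
    (hs : (s.card - 1) * N ≤ M) (S : Submodule ℂ A)
    (h : ∀ x (w' : ι → W), (∏ i ∈ s, l i x) ^ N * ∏ i ∈ s, l i (w' i) ^ M ∈ S) (w : ι → W) :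
    ∏ i ∈ s, l i (w i) ^ (N + M) ∈ S := by
  induction s using Finset.induction_on generalizing S with
  | empty => simpa using h 0 w
  | insert j s hj ih =>
    rw [card_insert_of_notMem hj, Nat.add_sub_cancel] at hs
    rw [prod_insert hj]
    refine ih ((Nat.mul_le_mul_right _ (Nat.sub_le _ _)).trans hs)
      (S.comap (LinearMap.mulLeft ℂ (l j (w j) ^ (N + M)))) fun x w' => ?_
    rw [Submodule.mem_comap, LinearMap.mulLeft_apply, mul_comm]
    refine move S (((PL.prod s l).pow N).mul (PL.const (∏ i ∈ s, l i (w' i) ^ M))) (l j)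
      (by simpa using hs) (fun y z => ?_) x (w j)
    have := h y (Function.update w' j z)
    rw [prod_insert hj, prod_insert hj, Function.update_self,
      prod_congr rfl (f := fun i => l i (Function.update w' j z i) ^ M)
        (g := fun i => l i (w' i) ^ M)
        (fun i hi => by rw [Function.update_of_ne (ne_of_mem_of_not_mem hi hj)])] at this
    convert this using 1
    ring

/-- symmetrized product of powers -/
def per {a : ℕ} (l : Fin a → W →ₗ[ℂ] A) (b : ℕ) (w : Fin a → W) : A :=
  ∑ τ : Perm (Fin a), ∏ k, l (τ k) (w k) ^ b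

/-- sum of coordinates -/
def tr (ι : Type*) [Fintype ι] (A : Type u) [CommRing A] [Algebra ℂ A] : (ι → A) →ₗ[ℂ] A :=
  ∑ i, LinearMap.proj i

theorem tr_apply {ι : Type*} [Fintype ι] (x : ι → A) : tr ι A x = ∑ i, x i := by
  simp [tr]

theorem step_per {a : ℕ} (l : Fin a → W →ₗ[ℂ] A) (N M : ℕ) (hs : (a - 1) * N ≤ M)
    (S : Submodule ℂ A) (h : ∀ x w', (∏ i, l i x) ^ N * per l M w' ∈ S) (w : Fin a → W) :
    per l (N + M) w ∈ S := by
  have := step_slots (A := Perm (Fin a) → A) (fun k => LinearMap.pi fun τ => l (τ k)) N M univ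
    (by simpa using hs) (S.comap (tr _ A)) (fun x w' => by
      rw [Submodule.mem_comap, tr_apply]
      convert h x w' using 1
      rw [per, mul_sum]
      refine sum_congr rfl fun τ _ => ?_
      simp only [Pi.mul_apply, Pi.pow_apply, Finset.prod_apply, LinearMap.pi_apply]
      rw [Equiv.prod_comp τ (fun i => l i x)]) w
  rw [Submodule.mem_comap, tr_apply] at this
  convert this using 1
  simp [per]

/-- span of diagonal products -/
def A1 {a : ℕ} (l : Fin a → W →ₗ[ℂ] A) : Submodule ℂ A :=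
  Submodule.span ℂ (Set.range fun x => ∏ i, l i x)

/-- span of powers -/
def Bp (β : W →ₗ[ℂ] A) (d : ℕ) : Submodule ℂ A :=
  Submodule.span ℂ (Set.range fun x => β x ^ d)

/-- span of extended diagonal products -/
def C1 {a : ℕ} (l : Fin a → W →ₗ[ℂ] A) (β : W →ₗ[ℂ] A) : Submodule ℂ A :=
  Submodule.span ℂ (Set.range fun x => (∏ i, l i x) * β x)

theorem peel_one {a : ℕ} (l : Fin a → W →ₗ[ℂ] A) (β : W →ₗ[ℂ] A) {d : ℕ} (hd : a ≤ d) :
    A1 l * Bp β (d + 1) ≤ C1 l β * Bp β d := by
  rw [A1, Bp, Submodule.span_mul_span, Submodule.span_le]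
  rintro _ ⟨_, ⟨L, rfl⟩, _, ⟨w, rfl⟩, rfl⟩
  have := move (C1 l β * Bp β d) (N := 1) (M := d) (PL.prod univ l) β (by simpa using hd)
    (fun y z => by
      rw [pow_one]
      exact Submodule.mul_mem_mul (Submodule.subset_span ⟨y, rfl⟩)
        (Submodule.subset_span ⟨z, rfl⟩)) L w
  rwa [add_comm] at this

theorem peel {a : ℕ} (l : Fin a → W →ₗ[ℂ] A) (β : W →ₗ[ℂ] A) {N : ℕ} (hN : a ≤ N) (M : ℕ) :
    A1 l ^ M * Bp β (N + M) ≤ C1 l β ^ M * Bp β N := by
  induction M with
  | zero => simp
  | succ M ih =>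
    calc A1 l ^ (M + 1) * Bp β (N + (M + 1))
        = A1 l ^ M * (A1 l * Bp β (N + M + 1)) := by rw [pow_succ, mul_assoc, add_assoc]
      _ ≤ A1 l ^ M * (C1 l β * Bp β (N + M)) :=
          mul_le_mul' le_rfl (peel_one l β (by omega))
      _ = C1 l β * (A1 l ^ M * Bp β (N + M)) := by ring
      _ ≤ C1 l β * (C1 l β ^ M * Bp β N) := mul_le_mul' le_rfl ih
      _ = _ := by ring

theorem newton_aux {ι : Type*} [Fintype ι] [DecidableEq ι] (u v : ι → A) (S : Submodule ℂ A)
    (h : ∀ k, (∏ i, (C (u i) + C (v i) * X)).coeff k ∈ S) (r : ℕ) : ∀ k,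
    ∑ i, (v i * ∏ j ∈ univ.erase i, u j) ^ r *
      (v i * (∏ j ∈ univ.erase i, (C (u j) + C (v j) * X)).coeff k) ∈ S ^ (r + 1) := by
  have h0 : ∀ s : Finset ι, (∏ j ∈ s, (C (u j) + C (v j) * X)).coeff 0 = ∏ j ∈ s, u j := by
    intro s
    simp [coeff_zero_eq_eval_zero, eval_prod]
  induction r with
  | zero =>
    intro k
    have := nat_mul_mem S (k + 1) (h (k + 1))
    rw [zero_add, pow_one]
    convert this using 1
    have h1 := coeff_derivative (∏ i, (C (u i) + C (v i) * X)) k
    rw [derivative_prod_finset, finset_sum_coeff] at h1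
    rw [mul_comm, Nat.cast_succ, ← h1]
    refine sum_congr rfl fun i _ => ?_
    rw [pow_zero, one_mul, derivative_add, derivative_C, derivative_C_mul_X, zero_add, coeff_mul_C,
      mul_comm]
  | succ r ih =>
    intro k
    have e1 := Submodule.mul_mem_mul (ih 0) (h (k + 1))
    have e2 := Submodule.mul_mem_mul (ih (k + 1)) (h 0)
    rw [← pow_succ] at e1 e2
    convert Submodule.sub_mem _ e1 e2 using 1
    rw [sum_mul, sum_mul, ← sum_sub_distrib]
    refine sum_congr rfl fun i _ => ?_
    rw [h0, h0, ← mul_prod_erase univ (fun j => C (u j) + C (v j) * X) (mem_univ i),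
      ← mul_prod_erase univ u (mem_univ i), add_mul, coeff_add, coeff_C_mul, mul_assoc (C (v i)),
      coeff_C_mul, coeff_X_mul]
    ring

theorem newton {ι : Type*} [Fintype ι] [DecidableEq ι] (u v : ι → A) (S : Submodule ℂ A)
    (h : ∀ k, (∏ i, (C (u i) + C (v i) * X)).coeff k ∈ S) (r : ℕ) :
    ∑ i, (v i * ∏ j ∈ univ.erase i, u j) ^ r ∈ S ^ r := by
  cases r with
  | zero =>
    refine Submodule.sum_mem _ fun i _ => ?_
    simpa using Submodule.pow_mem_pow S S.zero_mem 0
  | succ r =>
    convert newton_aux u v S h r 0 using 2 with i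
    simp [coeff_zero_eq_eval_zero, eval_prod, pow_succ]

theorem prod_swap_succ {M : Type*} [CommMonoid M] {a : ℕ} (i : Fin (a + 1))
    (f : Fin (a + 1) → M) : ∏ k : Fin a, f (swap 0 i k.succ) = ∏ j ∈ univ.erase i, f j := by
  refine prod_bij (fun k _ => swap 0 i k.succ) (fun k _ => ?_) (fun k _ k' _ hk => ?_)
    (fun j hj => ?_) (fun _ _ => rfl)
  · simp only [mem_erase, mem_univ, and_true]
    intro hk
    have := congrArg (swap 0 i) hk
    simp at this
  · simpa using hk
  · have hj' : swap 0 i j ≠ 0 := by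
      intro h0
      have := congrArg (swap 0 i) h0
      simp only [swap_apply_self, swap_apply_left] at this
      exact (mem_erase.1 hj).1 this
    obtain ⟨k, hk⟩ := Fin.exists_succ_eq.2 hj'
    exact ⟨k, mem_univ _, by simp [hk]⟩

end

theorem core (a : ℕ) : ∀ (A : Type u) [CommRing A] [Algebra ℂ A] (l : Fin a → W →ₗ[ℂ] A) (b : ℕ),
    (a - 1) ^ 2 ≤ b → ∀ w, per l b w ∈ A1 l ^ b := by
  induction a with
  | zero =>
    intro A _ _ l b _ w
    have h1 : (1 : A) ∈ A1 l := Submodule.subset_span ⟨0, by simp⟩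
    simpa [per] using Submodule.pow_mem_pow _ h1 b
  | succ a ih =>
    intro A _ _ l b hb w
    rw [Nat.add_sub_cancel] at hb
    obtain ⟨M, rfl⟩ : ∃ M, b = a + M :=
      Nat.exists_eq_add_of_le ((Nat.le_self_pow two_ne_zero a).trans hb)
    have hM : (a - 1) * a ≤ M := by
      rcases a with _ | a
      · simp
      · rw [Nat.add_sub_cancel]; nlinarith
    have hM' : (a - 1) ^ 2 ≤ M := by
      refine le_trans ?_ hM
      rw [sq]; exact Nat.mul_le_mul_left _ (Nat.sub_le _ _)
    set l' : Fin a → W →ₗ[ℂ] (Fin (a + 1) → A) :=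
      fun k => LinearMap.pi fun i => l (swap 0 i k.succ) with hl'
    set β : W →ₗ[ℂ] (Fin (a + 1) → A) := LinearMap.pi fun i => l i with hβ
    have hP : ∀ x i, (∏ k, l' k x) i = ∏ j ∈ univ.erase i, l j x := fun x i => by
      rw [← prod_swap_succ i fun j => l j x]
      simp [hl']
    have hper : per l (a + M) w =
        tr _ A (β (w 0) ^ (a + M) * per l' (a + M) fun k => w k.succ) := by
      rw [tr_apply, per, Finset.univ_perm_fin_succ, sum_map, Fintype.sum_prod_type]
      refine sum_congr rfl fun i _ => ?_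
      simp only [per, Pi.mul_apply, Finset.sum_apply, mul_sum]
      refine sum_congr rfl fun e _ => ?_
      rw [Fin.prod_univ_succ]
      simp [hl', hβ]
    have hC : C1 l' β ≤ (A1 l).map (Pi.constAlgHom ℂ (Fin (a + 1)) A).toLinearMap := by
      rw [C1, Submodule.span_le]
      rintro _ ⟨x, rfl⟩
      refine ⟨∏ i, l i x, Submodule.subset_span ⟨x, rfl⟩, ?_⟩
      funext i
      simp only [Pi.mul_apply, hP]
      simp [hβ, prod_erase_mul]
    have hN : ∀ x, ∀ y ∈ Bp β a, tr _ A ((∏ k, l' k x) ^ a * y) ∈ A1 l ^ a := by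
      intro x y hy
      refine (Submodule.span_le (p := (A1 l ^ a).comap
        (tr _ A ∘ₗ LinearMap.mulLeft ℂ ((∏ k, l' k x) ^ a)))).2 ?_ hy
      rintro _ ⟨z, rfl⟩
      have := newton (fun i => l i x) (fun i => l i z) (A1 l) (coeff_mem _ _ fun t => by
        refine Submodule.subset_span ⟨x + t • z, ?_⟩
        simp only [eval_prod, lin_eval]) a
      simp only [SetLike.mem_coe, Submodule.mem_comap, LinearMap.comp_apply,
        LinearMap.mulLeft_apply, tr_apply, Pi.mul_apply, Pi.pow_apply, hP]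
      convert this using 2 with i
      simp [hβ, mul_pow, mul_comm]
    rw [hper]
    refine step_per l' a M hM ((A1 l ^ (a + M)).comap
      (tr _ A ∘ₗ LinearMap.mulLeft ℂ (β (w 0) ^ (a + M)))) (fun x w' => ?_) _
    have h1 : per l' M w' * β (w 0) ^ (a + M) ∈ C1 l' β ^ M * Bp β a :=
      peel l' β le_rfl M (Submodule.mul_mem_mul (ih _ l' M hM' w')
        (Submodule.subset_span ⟨w 0, rfl⟩))
    have h2 : C1 l' β ^ M * Bp β a ≤ (A1 l ^ (a + M)).comap
        (tr _ A ∘ₗ LinearMap.mulLeft ℂ ((∏ k, l' k x) ^ a)) := by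
      rw [Submodule.mul_le]
      intro c hc y hy
      have := pow_le_pow_left' hC M hc
      rw [← Submodule.map_pow] at this
      obtain ⟨c0, hc0, rfl⟩ := this
      have h3 := Submodule.mul_mem_mul (hN x y hy) hc0
      rw [← pow_add] at h3
      simp only [Submodule.mem_comap, LinearMap.comp_apply, LinearMap.mulLeft_apply]
      convert h3 using 1
      simp only [tr_apply, sum_mul]
      refine sum_congr rfl fun i _ => ?_
      simp
      ring
    have h4 := h2 h1
    simp only [Submodule.mem_comap, LinearMap.comp_apply, LinearMap.mulLeft_apply] at h4 ⊢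
    convert h4 using 2
    ring

end Vale.Agent.P181
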