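import Mathlib

/-! Functoriality of Mathlib's symmetric powers. -/

open scoped TensorProduct

namespace Vale.Agent.P181

universe u v

section
variable {R ι : Type} [CommSemiring R] {M : Type u} [AddCommMonoid M] [Module R M]
  {N : Type v} [AddCommMonoid N] [Module R N]

/-- A multilinear map on `M ^ ι` is symmetric. -/
def IsSymm (f : MultilinearMap R (fun _ : ι => M) N) : Prop :=
  ∀ (e : Equiv.Perm ι) (v : ι → M), f (fun i => v (e i)) = f v

theorem IsSymm.le_ker {f : MultilinearMap R (fun _ : ι => M) N} (hf : IsSymm f) :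
    addConGen (SymmetricPower.Rel R ι M) ≤ AddCon.ker (PiTensorProduct.lift f).toAddMonoidHom :=
  AddCon.addConGen_le.2 fun x y h => by
    cases h with
    | perm e v => simpa [AddCon.ker_rel] using (hf e v).symm

/-- The additive map on the symmetric power induced by a symmetric multilinear map. -/
noncomputable def symLiftAdd (f : MultilinearMap R (fun _ : ι => M) N) (hf : IsSymm f) :
    Sym[R] ι M →+ N :=
  AddCon.lift _ (PiTensorProduct.lift f).toAddMonoidHom hf.le_ker

/-- Universal property of the symmetric power: a symmetric multilinear map `f` on `M ^ ι` induces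
the linear map on the symmetric power sending `v_1 ⋯ v_n` to `f (v_1, …, v_n)`. -/
noncomputable def symLift (f : MultilinearMap R (fun _ : ι => M) N) (hf : IsSymm f) :
    Sym[R] ι M →ₗ[R] N where
  toFun := symLiftAdd f hf
  map_add' := (symLiftAdd f hf).map_add
  map_smul' c x := AddCon.induction_on x fun y => (PiTensorProduct.lift f).map_smul c y

/-- The linear map `Sym g : Sym M → Sym N`, `v_1 ⋯ v_n ↦ g v_1 ⋯ g v_n`. -/
noncomputable def symMap (ι : Type) (g : M →ₗ[R] N) : Sym[R] ι M →ₗ[R] Sym[R] ι N :=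
  symLift ((SymmetricPower.tprod R).compLinearMap fun _ => g)
    fun e v => SymmetricPower.tprod_equiv e fun i => g (v i)

end

/-- The `n`-th symmetric power as a bundled complex vector space. -/
noncomputable def SymP (n : ℕ) (U : ModuleCat.{u} ℂ) : ModuleCat.{u} ℂ :=
  ModuleCat.of ℂ (Sym[ℂ]^n U)

/-- The product `v_1 ⋯ v_n` in `Sym^n U`. -/
noncomputable def sprod (n : ℕ) {U : ModuleCat.{u} ℂ} (v : Fin n → U) : SymP n U :=
  ⨂ₛ[ℂ] i, v i

/-- The action of an endomorphism `g` of `U` on `Sym^n U`. -/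
noncomputable def symEnd (n : ℕ) {U : ModuleCat.{u} ℂ} (g : U →ₗ[ℂ] U) :
    SymP n U →ₗ[ℂ] SymP n U :=
  symMap (Fin n) g

/-- `Ψ` is given on products by the formula of the canonical Foulkes-Howe map. -/
def IsFoulkesHowe (a b : ℕ) (V : ModuleCat.{u} ℂ)
    (Ψ : SymP a (SymP b V) →ₗ[ℂ] SymP b (SymP a V)) : Prop :=
  ∀ v : Fin a → Fin b → V, Ψ (sprod a fun i => sprod b fun j => v i j) =
    ∑ σ : Fin a → Equiv.Perm (Fin b), sprod b fun j => sprod a fun i => v i (σ i j)

/-- `Ψ` commutes with the action of `GL(V)`. -/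
def IsEquivariant (a b : ℕ) (V : ModuleCat.{u} ℂ)
    (Ψ : SymP a (SymP b V) →ₗ[ℂ] SymP b (SymP a V)) : Prop :=
  ∀ (g : V ≃ₗ[ℂ] V) (x : SymP a (SymP b V)),
    Ψ (symEnd a (symEnd b g.toLinearMap) x) = symEnd b (symEnd a g.toLinearMap) (Ψ x)

end Vale.Agent.P181
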