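import Mathlib

/-! Coefficient extraction and the basic moving lemma. -/

open Polynomial Finset

namespace Vale.Agent.P181

universe u v

variable {A : Type u} [CommRing A] [Algebra ℂ A] {W : Type v} [AddCommGroup W] [Module ℂ W]

theorem coeff_mem (S : Submodule ℂ A) (p : A[X])
    (h : ∀ t : ℂ, p.eval (algebraMap ℂ A t) ∈ S) (k : ℕ) : p.coeff k ∈ S := by
  by_contra hk
  obtain ⟨f, hf, hS⟩ := Submodule.exists_dual_map_eq_bot_of_notMem hk inferInstance
  have hz : ∀ x ∈ S, f x = 0 := fun x hx => by
    have : f x ∈ S.map f := Submodule.mem_map_of_mem hx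
    rwa [hS, Submodule.mem_bot] at this
  set q : ℂ[X] := ∑ i ∈ range (p.natDegree + 1), monomial i (f (p.coeff i)) with hq
  have hq0 : q = 0 := by
    apply Polynomial.funext
    intro t
    have := hz _ (h t)
    rw [eval_eq_sum_range, map_sum] at this
    rw [hq, eval_finset_sum, eval_zero, ← this]
    refine sum_congr rfl fun i _ => ?_
    rw [eval_monomial, ← map_pow, mul_comm (p.coeff i), ← Algebra.smul_def, map_smul,
      smul_eq_mul, mul_comm]
  apply hf
  by_cases hkd : k ≤ p.natDegree
  · have : q.coeff k = f (p.coeff k) := by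
      rw [hq, finset_sum_coeff]
      simp only [coeff_monomial]
      rw [sum_ite_eq' ]
      simp [Nat.lt_succ_iff, hkd]
    rw [← this, hq0, coeff_zero]
  · rw [coeff_eq_zero_of_natDegree_lt (not_le.1 hkd), map_zero]

/-- polynomial of degree at most `D` along every line -/
def PL (Q : W → A) (D : ℕ) : Prop :=
  ∀ L w : W, ∃ p : A[X], p.natDegree ≤ D ∧ ∀ t : ℂ, Q (L + t • w) = p.eval (algebraMap ℂ A t)

theorem PL.const (c : A) : PL (fun _ : W => c) 0 :=
  fun _ _ => ⟨C c, by simp, by simp⟩

theorem PL.mono {Q : W → A} {D E : ℕ} (h : PL Q D) (hDE : D ≤ E) : PL Q E :=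
  fun L w => let ⟨p, hp, h'⟩ := h L w; ⟨p, hp.trans hDE, h'⟩

theorem lin_eval (β : W →ₗ[ℂ] A) (L w : W) (t : ℂ) :
    β (L + t • w) = (C (β L) + C (β w) * X).eval (algebraMap ℂ A t) := by
  rw [map_add, map_smul, Algebra.smul_def, eval_add, eval_mul, eval_C, eval_C, eval_X, mul_comm]

theorem PL.lin (β : W →ₗ[ℂ] A) : PL β 1 := fun L w =>
  ⟨C (β L) + C (β w) * X, by compute_degree, lin_eval β L w⟩

theorem PL.mul {Q R : W → A} {D E : ℕ} (h : PL Q D) (h' : PL R E) :
    PL (fun x => Q x * R x) (D + E) := fun L w => by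
  obtain ⟨p, hp, hpe⟩ := h L w
  obtain ⟨q, hq, hqe⟩ := h' L w
  exact ⟨p * q, natDegree_mul_le.trans (add_le_add hp hq), fun t => by simp [hpe, hqe]⟩

theorem PL.pow {Q : W → A} {D : ℕ} (h : PL Q D) (n : ℕ) : PL (fun x => Q x ^ n) (D * n) := by
  induction n with
  | zero => simpa using PL.const (W := W) (1 : A)
  | succ n ih => simpa [pow_succ, mul_add] using ih.mul h

theorem PL.prod {ι : Type*} (s : Finset ι) (l : ι → W →ₗ[ℂ] A) :
    PL (fun x => ∏ i ∈ s, l i x) s.card := by
  classical
  induction s using Finset.induction_on with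
  | empty => simpa using PL.const (W := W) (1 : A)
  | insert j s hj ih =>
    simp only [prod_insert hj, card_insert_of_notMem hj]
    rw [add_comm]
    exact (PL.lin (l j)).mul ih

theorem coeff_lin_pow (u w : A) (N j : ℕ) :
    ((C u + C w * X) ^ N).coeff j = (N.choose j : A) * (u ^ (N - j) * w ^ j) := by
  rw [add_comm, add_pow, finset_sum_coeff]
  have : ∀ m, ((C w * X) ^ m * C u ^ (N - m) * (N.choose m : A[X])).coeff j =
      if m = j then (N.choose m : A) * (u ^ (N - m) * w ^ m) else 0 := fun m => by
    have : (C w * X) ^ m * C u ^ (N - m) * (N.choose m : A[X]) =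
        monomial m ((N.choose m : A) * (u ^ (N - m) * w ^ m)) := by
      rw [← C_mul_X_pow_eq_monomial]
      simp only [map_mul, map_pow, map_natCast, mul_pow]
      ring
    rw [this, coeff_monomial]
  simp only [this]
  rw [sum_ite_eq']
  split_ifs with h
  · rfl
  · rw [mem_range, not_lt] at h
    simp [Nat.choose_eq_zero_of_lt h]

theorem mem_of_nat_mul (S : Submodule ℂ A) {n : ℕ} (hn : n ≠ 0) {x : A} (h : (n : A) * x ∈ S) :
    x ∈ S := by
  have h1 : (n : A) * x = (n : ℂ) • x := by rw [Algebra.smul_def, map_natCast]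
  rw [h1] at h
  have := S.smul_mem (n : ℂ)⁻¹ h
  rwa [smul_smul, inv_mul_cancel₀ (by exact_mod_cast hn), one_smul] at this

theorem nat_mul_mem (S : Submodule ℂ A) (n : ℕ) {x : A} (h : x ∈ S) : (n : A) * x ∈ S := by
  have h1 : (n : A) * x = (n : ℂ) • x := by rw [Algebra.smul_def, map_natCast]
  rw [h1]; exact S.smul_mem _ h

/-- the moving lemma -/
theorem move (S : Submodule ℂ A) {Q : W → A} {D N M : ℕ} (hQ : PL Q D) (β : W →ₗ[ℂ] A)
    (hDM : D ≤ M) (h : ∀ l w', Q l * β l ^ N * β w' ^ M ∈ S) (L w : W) :
    Q L * β w ^ (N + M) ∈ S := by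
  obtain ⟨p, hp, hpe⟩ := hQ L w
  set u := β L with hu
  set x := β w with hx
  -- first extraction
  have h1 : ∀ e ≤ M, ∀ t : ℂ,
      Q (L + t • w) * β (L + t • w) ^ N * (x ^ (M - e) * u ^ e) ∈ S := by
    intro e he t
    have := coeff_mem S (C (Q (L + t • w) * β (L + t • w) ^ N) * (C x + C u * X) ^ M)
      (fun s => by
        have := h (L + t • w) (w + s • L)
        rw [lin_eval β w L s] at this
        simpa [eval_pow] using this) e
    rw [coeff_C_mul, coeff_lin_pow, mul_left_comm] at this
    exact mem_of_nat_mul S (Nat.choose_pos he).ne' this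
  have h2 : ∀ e ≤ M, (p * (C u + C x * X) ^ N).coeff (N + e) * (x ^ (M - e) * u ^ e) ∈ S := by
    intro e he
    have := coeff_mem S (p * (C u + C x * X) ^ N * C (x ^ (M - e) * u ^ e))
      (fun t => by
        have := h1 e he t
        rw [hpe t, lin_eval β L w t] at this
        simpa only [eval_mul, eval_pow, eval_C] using this) (N + e)
    rwa [coeff_mul_C] at this
  have key : ∀ n e, M + 1 ≤ e + n → p.coeff e * (u ^ e * x ^ (N + M - e)) ∈ S := by
    intro n
    induction n with
    | zero =>
      intro e he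
      rw [coeff_eq_zero_of_natDegree_lt (by omega), zero_mul]
      exact S.zero_mem
    | succ n ih =>
      intro e he
      by_cases heM : e ≤ M
      swap
      · exact ih e (by omega)
      have h3 := h2 e heM
      rw [coeff_mul, sum_mul, ← Finset.add_sum_erase _ _ (a := (e, N))
        (by rw [HasAntidiagonal.mem_antidiagonal]; omega)] at h3
      have h4 : ∑ c ∈ (HasAntidiagonal.antidiagonal (N + e)).erase (e, N),
          p.coeff c.1 * ((C u + C x * X) ^ N).coeff c.2 * (x ^ (M - e) * u ^ e) ∈ S := by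
        refine S.sum_mem fun c hc => ?_
        obtain ⟨hne, hc⟩ := mem_erase.1 hc
        rw [HasAntidiagonal.mem_antidiagonal] at hc
        rw [coeff_lin_pow]
        by_cases hj : N < c.2
        · simp [Nat.choose_eq_zero_of_lt hj]
        have hj' : c.2 < N := by
          rcases (not_lt.1 hj).lt_or_eq with h5 | h5
          · exact h5
          · exact absurd (Prod.ext (by simp; omega) h5) hne
        have h6 := nat_mul_mem S (N.choose c.2) (ih c.1 (by omega))
        have e1 : c.1 = (N - c.2) + e := by omega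
        have e2 : N + M - c.1 = c.2 + (M - e) := by omega
        convert h6 using 1
        rw [e2]
        conv_rhs => rw [show u ^ c.1 = u ^ (N - c.2) * u ^ e by rw [← pow_add, ← e1]]
        ring
      have h5 := (Submodule.add_mem_iff_left S h4).1 h3
      rw [coeff_lin_pow] at h5
      convert h5 using 1
      rw [show N + M - e = N + (M - e) by omega]
      simp only [Nat.choose_self, Nat.cast_one, Nat.sub_self]
      ring
  have h0 := key (M + 1) 0 (by omega)
  have : Q L = p.coeff 0 := by
    have := hpe 0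
    simpa [coeff_zero_eq_eval_zero] using this
  rw [this]
  simpa using h0

end Vale.Agent.P181
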