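import Vale.Agent.P181.Sym
import Vale.Agent.P181.Core

/-! The Foulkes-Howe map and its injectivity. -/

open scoped TensorProduct
open Finset Equiv Module

namespace Vale.Agent.P181

universe u v

variable {V : Type u} [AddCommGroup V] [Module ℂ V] {N : Type v} [AddCommGroup N] [Module ℂ N]

theorem sym2_ext {a b : ℕ} {f g : Sym[ℂ]^a (Sym[ℂ]^b V) →ₗ[ℂ] N}
    (h : ∀ v : Fin a → Fin b → V, f (tp a fun i => tp b (v i)) = g (tp a fun i => tp b (v i))) :
    f = g := sym_ext_span (span_tp b) h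

theorem sym2_ext_pure {a b : ℕ} {f g : Sym[ℂ]^a (Sym[ℂ]^b V) →ₗ[ℂ] N}
    (h : ∀ x : Fin a → V, f (tp a fun i => tp b fun _ => x i) =
      g (tp a fun i => tp b fun _ => x i)) : f = g := sym_ext_span (span_pure b) h

/-- the multilinear map underlying the Foulkes-Howe map -/
noncomputable def psiM {ι : Type*} [Fintype ι] (e : Basis ι ℂ V) (a b : ℕ) :
    MultilinearMap ℂ (fun _ : Fin a => Sym[ℂ]^b V) (Sym[ℂ]^b (Sym[ℂ]^a V)) :=
  ∑ H : Fin b → Fin a → ι, (prodF fun i => pol b fun j => e.coord (H j i)).smulRight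
    (tp b fun j => tp a fun i => e (H j i))

theorem psiM_tp {ι : Type*} [Fintype ι] (e : Basis ι ℂ V) (a b : ℕ) (v : Fin a → Fin b → V) :
    psiM e a b (fun i => tp b (v i)) =
      ∑ σ : Fin a → Perm (Fin b), tp b fun j => tp a fun i => v i (σ i j) := by
  classical
  simp only [psiM, MultilinearMap.sum_apply, MultilinearMap.smulRight_apply, prodF_apply, pol_tp]
  simp only [prod_univ_sum, Fintype.piFinset_univ, sum_smul]
  rw [sum_comm]
  refine sum_congr rfl fun σ _ => ?_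
  have : (fun j => tp a fun i => v i (σ i j)) = fun j => ∑ g : Fin a → ι,
      (∏ i, e.coord (g i) (v i (σ i j))) • tp a (fun i => e (g i)) :=
    funext fun j => (expand e (tp a) _).symm
  rw [this]
  simp only [MultilinearMap.map_sum, MultilinearMap.map_smul_univ]
  refine sum_congr rfl fun H _ => ?_
  rw [prod_comm]

theorem psiM_perm {ι : Type*} [Fintype ι] (e : Basis ι ℂ V) (a b : ℕ) (τ : Perm (Fin a))
    (F : Fin a → Sym[ℂ]^b V) : psiM e a b (fun i => F (τ i)) = psiM e a b F := by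
  have : (psiM e a b).domDomCongr τ = psiM e a b := by
    refine MultilinearMap.ext_of_span_eq_top (g := fun _ => tp b) (fun _ => span_tp b) fun v => ?_
    rw [MultilinearMap.domDomCongr_apply, psiM_tp, psiM_tp,
      ← Equiv.sum_comp (Equiv.arrowCongr τ.symm (Equiv.refl (Perm (Fin b))))]
    refine sum_congr rfl fun σ _ => congrArg _ (funext fun j => ?_)
    exact tp_perm τ fun i => v i (σ i j)
  exact DFunLike.congr_fun this F

theorem exists_psi [Module.Finite ℂ V] (a b : ℕ) :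
    ∃ Ψ : Sym[ℂ]^a (Sym[ℂ]^b V) →ₗ[ℂ] Sym[ℂ]^b (Sym[ℂ]^a V), ∀ v : Fin a → Fin b → V,
      Ψ (tp a fun i => tp b (v i)) =
        ∑ σ : Fin a → Perm (Fin b), tp b fun j => tp a fun i => v i (σ i j) :=
  ⟨symLift (psiM (finBasis ℂ V) a b) (psiM_perm _ a b), fun v =>
    (symLift_tp a _ _ _).trans (psiM_tp _ a b v)⟩

/-- coordinate forms on tuples of vectors -/
def lam (V : Type u) [AddCommGroup V] [Module ℂ V] (a : ℕ) (i : Fin a) :
    Dual ℂ V →ₗ[ℂ] ((Fin a → V) → ℂ) :=
  LinearMap.pi fun x => Dual.eval ℂ V (x i)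

@[simp] theorem lam_apply {a : ℕ} (i : Fin a) (y : Dual ℂ V) (x) : lam V a i y x = y (x i) := rfl

theorem psi_inj [Module.Finite ℂ V] {a b : ℕ}
    (Ψ : Sym[ℂ]^a (Sym[ℂ]^b V) →ₗ[ℂ] Sym[ℂ]^b (Sym[ℂ]^a V))
    (hΨ : ∀ v : Fin a → Fin b → V, Ψ (tp a fun i => tp b (v i)) =
        ∑ σ : Fin a → Perm (Fin b), tp b fun j => tp a fun i => v i (σ i j))
    (hc : ∀ w, per (lam V a) b w ∈ A1 (lam V a) ^ b) : Function.Injective Ψ := by
  classical
  rw [injective_iff_map_eq_zero]
  intro φ hφ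
  have hA : ∀ y : Fin b → Dual ℂ V, pw a (pol b y) φ = 0 := fun y => by
    have : pol b (fun j => pw a (y j)) ∘ₗ Ψ = ∑ _ρ : Perm (Fin b), pw a (pol b y) :=
      sym2_ext fun v => by
        simp only [LinearMap.comp_apply, hΨ, map_sum, pol_tp, pw_tp, LinearMap.sum_apply]
        rw [sum_comm]
        refine sum_congr rfl fun ρ _ => ?_
        rw [prod_univ_sum, Fintype.piFinset_univ]
        conv_rhs => rw [← Equiv.sum_comp (Equiv.piCongrRight fun _ : Fin a => Equiv.mulRight ρ)]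
        refine sum_congr rfl fun σ _ => ?_
        rw [prod_comm]
        rfl
    have h1 := DFunLike.congr_fun this φ
    simp only [LinearMap.comp_apply, hφ, map_zero, LinearMap.sum_apply] at h1
    exact (Submodule.mem_bot ℂ).1 (mem_of_fac_smul (n := b) ⊥ (h1 ▸ Submodule.zero_mem _))
  let R : Dual ℂ (Sym[ℂ]^a (Sym[ℂ]^b V)) →ₗ[ℂ] ((Fin a → V) → ℂ) :=
    LinearMap.pi fun x => Dual.eval ℂ _ (tp a fun i => tp b fun _ => x i)
  have hR : ∀ f x, R f x = f (tp a fun i => tp b fun _ => x i) := fun _ _ => rfl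
  let K : Submodule ℂ (Dual ℂ (Sym[ℂ]^a (Sym[ℂ]^b V))) := LinearMap.ker (Dual.eval ℂ _ φ)
  have hK : A1 (lam V a) ^ b ≤ K.map R := by
    have : A1 (lam V a) ^ b = ∏ _j : Fin b, A1 (lam V a) := by simp
    rw [this, A1, Submodule.prod_span, Submodule.span_le]
    intro z hz
    obtain ⟨g, hg, rfl⟩ := (Set.mem_fintype_prod _ _).1 hz
    choose y hy using hg
    have h1 : R (pw a (pol b y)) ∈ K.map R := Submodule.mem_map_of_mem (hA y)
    have h2 : R (pw a (pol b y)) = ((b.factorial : ℂ) ^ a) • ∏ j, g j := by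
      funext x
      simp only [hR, pw_tp, pol_tp, ← hy, sum_const, card_univ, Fintype.card_perm,
        Fintype.card_fin, nsmul_eq_mul, prod_mul_distrib, prod_const, Pi.smul_apply,
        Finset.prod_apply, lam_apply, smul_eq_mul]
      rw [prod_comm]
    rw [h2] at h1
    have := Submodule.smul_mem _ ((b.factorial : ℂ) ^ a)⁻¹ h1
    rwa [smul_smul, inv_mul_cancel₀ (pow_ne_zero _ (by exact_mod_cast b.factorial_ne_zero)),
      one_smul] at this
  have hB : ∀ w : Fin a → Dual ℂ V, pol a (fun k => pw b (w k)) φ = 0 := fun w => by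
    obtain ⟨f, hf, hfR⟩ := hK (hc w)
    have : f = pol a fun k => pw b (w k) := sym2_ext_pure fun x => by
      rw [← hR, hfR]
      simp [per]
    rw [← this]
    exact hf
  haveI := finite_sym (M := V) b
  refine eq_zero_of_pol fun η => ?_
  have : (Dual.eval ℂ _ φ).compMultilinearMap (polM a) = 0 :=
    MultilinearMap.ext_of_span_eq_top (g := fun _ => pw b) (fun _ => span_pw b) hB
  exact DFunLike.congr_fun this η

theorem psi_equivariant {a b : ℕ}
    (Ψ : Sym[ℂ]^a (Sym[ℂ]^b V) →ₗ[ℂ] Sym[ℂ]^b (Sym[ℂ]^a V))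
    (hΨ : ∀ v : Fin a → Fin b → V, Ψ (tp a fun i => tp b (v i)) =
        ∑ σ : Fin a → Perm (Fin b), tp b fun j => tp a fun i => v i (σ i j)) (g : V →ₗ[ℂ] V) :
    Ψ ∘ₗ symMap (Fin a) (symMap (Fin b) g) = symMap (Fin b) (symMap (Fin a) g) ∘ₗ Ψ :=
  sym2_ext fun v => by
    simp only [LinearMap.comp_apply, symMap_tp, hΨ, map_sum]

end Vale.Agent.P181
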