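import Vale.Agent.P181.Defs

/-! Basic API for symmetric powers: extension, polarization, separating functionals. -/

open scoped TensorProduct
open Finset Equiv Module

namespace Vale.Agent.P181

universe u v

variable {M : Type u} [AddCommGroup M] [Module ℂ M] {N : Type v} [AddCommGroup N] [Module ℂ N]

/-- shorthand for the product in the symmetric power -/
noncomputable abbrev tp (n : ℕ) : MultilinearMap ℂ (fun _ : Fin n => M) (Sym[ℂ]^n M) :=
  SymmetricPower.tprod ℂ

@[simp] theorem symLift_tp (n : ℕ) (f : MultilinearMap ℂ (fun _ : Fin n => M) N) (hf) (v) :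
    symLift f hf (tp n v) = f v :=
  PiTensorProduct.lift.tprod (φ := f) v

@[simp] theorem symMap_tp (n : ℕ) (g : M →ₗ[ℂ] N) (v : Fin n → M) :
    symMap (Fin n) g (tp n v) = tp n fun i => g (v i) :=
  symLift_tp n _ _ v

theorem tp_perm {n : ℕ} (e : Perm (Fin n)) (v : Fin n → M) : tp n (fun i => v (e i)) = tp n v :=
  SymmetricPower.tprod_equiv e v

theorem span_tp (n : ℕ) : Submodule.span ℂ (Set.range (tp (M := M) n)) = ⊤ :=
  SymmetricPower.span_tprod_eq_top ℂ (Fin n) M

theorem sym_ext {n : ℕ} {f g : Sym[ℂ]^n M →ₗ[ℂ] N} (h : ∀ v, f (tp n v) = g (tp n v)) : f = g :=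
  LinearMap.ext_on_range (span_tp n) h

theorem sym_ext_span {n : ℕ} {κ : Type*} {e : κ → M}
    (he : Submodule.span ℂ (Set.range e) = ⊤) {f g : Sym[ℂ]^n M →ₗ[ℂ] N}
    (h : ∀ v : Fin n → κ, f (tp n fun i => e (v i)) = g (tp n fun i => e (v i))) : f = g := by
  have : f.compMultilinearMap (tp n) = g.compMultilinearMap (tp n) :=
    MultilinearMap.ext_of_span_eq_top (g := fun _ => e) (fun _ => he) h
  exact sym_ext fun v => DFunLike.congr_fun this v

theorem sum_surj {n : ℕ} (F : (Fin n → Fin n) → N) :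
    ∑ f : Fin n → Fin n, (∏ i, (1 - (0 : ℂ) ^ (univ.filter fun j => f j = i).card)) • F f =
      ∑ σ : Perm (Fin n), F σ := by
  classical
  have h1 : ∀ f : Fin n → Fin n,
      (∏ i, (1 - (0 : ℂ) ^ (univ.filter fun j => f j = i).card)) • F f =
      if Function.Bijective f then F f else 0 := fun f => by
    split_ifs with hf
    · rw [prod_eq_one, one_smul]
      intro i _
      obtain ⟨j, hj⟩ := hf.2 i
      rw [zero_pow (card_pos.2 ⟨j, by simpa using hj⟩).ne', sub_zero]
    · have hs : ¬ Function.Surjective f := fun hs =>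
        hf ⟨Finite.injective_iff_surjective.2 hs, hs⟩
      simp only [Function.Surjective, not_forall, not_exists] at hs
      obtain ⟨i, hi⟩ := hs
      rw [prod_eq_zero (mem_univ i), zero_smul]
      rw [filter_eq_empty_iff.2 fun j _ => hi j]
      simp
  simp only [h1]
  rw [← sum_filter]
  exact sum_bij (fun p h => Equiv.ofBijective p (mem_filter.1 h).2) (fun _ _ => mem_univ _)
    (fun _ _ _ _ h => by injection h)
    (fun b _ => ⟨b, mem_filter.2 ⟨mem_univ _, b.bijective⟩, coe_fn_injective rfl⟩)
    fun _ _ => rfl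

theorem polar {n : ℕ} (m : MultilinearMap ℂ (fun _ : Fin n => M) N) (S : Submodule ℂ N)
    (h : ∀ x, m (fun _ => x) ∈ S) (v : Fin n → M) :
    ∑ σ : Perm (Fin n), m (fun i => v (σ i)) ∈ S := by
  classical
  set c : Bool → ℂ := fun x => if x then 1 else -1 with hc
  set d : Bool → ℂ := fun x => if x then 1 else 0 with hd
  have key : ∑ ε : Fin n → Bool, (∏ i, c (ε i)) • m (fun _ => ∑ i, d (ε i) • v i) =
      ∑ σ : Perm (Fin n), m (fun i => v (σ i)) := by
    rw [← sum_surj fun f => m fun i => v (f i)]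
    simp only [MultilinearMap.map_sum, MultilinearMap.map_smul_univ, smul_sum, smul_smul]
    rw [sum_comm]
    refine sum_congr rfl fun f _ => ?_
    rw [← sum_smul]
    congr 1
    have : ∀ ε : Fin n → Bool, (∏ i, c (ε i)) * ∏ j, d (ε (f j)) =
        ∏ i, (c (ε i) * d (ε i) ^ (univ.filter fun j => f j = i).card) := fun ε => by
      rw [prod_mul_distrib, ← prod_fiberwise' univ f fun i => d (ε i)]
      simp
    simp only [this]
    rw [← Fintype.piFinset_univ,
      ← prod_univ_sum (fun _ => univ)
        (fun i x => c x * d x ^ (univ.filter fun j => f j = i).card)]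
    refine prod_congr rfl fun i _ => ?_
    simp [hc, hd, sub_eq_add_neg]
  rw [← key]
  exact S.sum_mem fun ε _ => S.smul_mem _ (h _)

theorem mem_of_fac_smul (S : Submodule ℂ N) {n : ℕ} {x : N}
    (h : ∑ _σ : Perm (Fin n), x ∈ S) : x ∈ S := by
  rw [sum_const, card_univ, ← Nat.cast_smul_eq_nsmul ℂ] at h
  have := S.smul_mem ((Fintype.card (Perm (Fin n)) : ℂ))⁻¹ h
  rwa [smul_smul, inv_mul_cancel₀ (by exact_mod_cast Fintype.card_ne_zero), one_smul] at this

theorem span_pure (n : ℕ) :
    Submodule.span ℂ (Set.range fun x : M => tp n fun _ => x) = ⊤ := by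
  rw [eq_top_iff, ← span_tp n, Submodule.span_le]
  rintro _ ⟨v, rfl⟩
  have := polar (tp n) (Submodule.span ℂ (Set.range fun x : M => tp n fun _ => x))
    (fun x => Submodule.subset_span ⟨x, rfl⟩) v
  simp only [tp_perm] at this
  exact mem_of_fac_smul _ this

/-- product of linear forms -/
noncomputable def prodF {n : ℕ} (η : Fin n → Dual ℂ M) :
    MultilinearMap ℂ (fun _ : Fin n => M) ℂ :=
  (MultilinearMap.mkPiAlgebra ℂ (Fin n) ℂ).compLinearMap η

@[simp] theorem prodF_apply {n : ℕ} (η : Fin n → Dual ℂ M) (v) :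
    prodF η v = ∏ j, η j (v j) := by simp [prodF]

/-- the power functional -/
noncomputable def pw (n : ℕ) (η : Dual ℂ M) : Dual ℂ (Sym[ℂ]^n M) :=
  symLift (prodF fun _ => η) fun e v => by
    simpa using Equiv.prod_comp e fun i => η (v i)

@[simp] theorem pw_tp (n : ℕ) (η : Dual ℂ M) (v) : pw n η (tp n v) = ∏ j, η (v j) :=
  (symLift_tp n _ _ v).trans (by simp)

/-- the polarized functional -/
noncomputable def pol (n : ℕ) (η : Fin n → Dual ℂ M) : Dual ℂ (Sym[ℂ]^n M) :=
  symLift (∑ τ : Perm (Fin n), (prodF η).domDomCongr τ) fun e v => by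
    simp only [MultilinearMap.sum_apply, MultilinearMap.domDomCongr_apply]
    exact Equiv.sum_comp (Equiv.mulLeft e) fun τ => prodF η fun i => v (τ i)

@[simp] theorem pol_tp (n : ℕ) (η : Fin n → Dual ℂ M) (v) :
    pol n η (tp n v) = ∑ τ : Perm (Fin n), ∏ j, η j (v (τ j)) :=
  (symLift_tp n _ _ v).trans (by simp [MultilinearMap.sum_apply])

/-- evaluation of the polarized functional, multilinear in the forms -/
noncomputable def polG {n : ℕ} (v : Fin n → M) :
    MultilinearMap ℂ (fun _ : Fin n => Dual ℂ M) ℂ :=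
  ∑ τ : Perm (Fin n), prodF fun j => Dual.eval ℂ M (v (τ j))

theorem polG_apply {n : ℕ} (v : Fin n → M) (η) : polG v η = pol n η (tp n v) := by
  simp [polG, MultilinearMap.sum_apply]

/-- the polarized functional as a multilinear map -/
noncomputable def polM (n : ℕ) :
    MultilinearMap ℂ (fun _ : Fin n => Dual ℂ M) (Dual ℂ (Sym[ℂ]^n M)) where
  toFun η := pol n η
  map_update_add' η i x y := sym_ext fun v => by
    simpa only [polG_apply, LinearMap.add_apply] using (polG v).map_update_add η i x y
  map_update_smul' η i c x := sym_ext fun v => by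
    simpa only [polG_apply, LinearMap.smul_apply] using (polG v).map_update_smul η i c x

theorem pol_perm {n : ℕ} (e : Perm (Fin n)) (η : Fin n → Dual ℂ M) :
    pol n (fun i => η (e i)) = pol n η := sym_ext fun v => by
  simp only [pol_tp]
  rw [← Equiv.sum_comp (Equiv.mulRight e)]
  refine sum_congr rfl fun τ _ => ?_
  exact Equiv.prod_comp e fun j => η j (v (τ j))

theorem pol_mem_span {n : ℕ} (η : Fin n → Dual ℂ M) :
    pol n η ∈ Submodule.span ℂ (Set.range (pw (M := M) n)) := by
  have := polar (polM n) (Submodule.span ℂ (Set.range (pw (M := M) n)))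
    (fun x => by
      have : polM n (fun _ => x) = ∑ _σ : Perm (Fin n), pw n x := sym_ext fun v => by
        simp only [polM, MultilinearMap.coe_mk, pol_tp, LinearMap.sum_apply, pw_tp]
        exact sum_congr rfl fun τ _ => Equiv.prod_comp τ fun i => x (v i)
      rw [this]
      exact Submodule.sum_mem _ fun _ _ => Submodule.subset_span ⟨x, rfl⟩) η
  simp only [polM, MultilinearMap.coe_mk, pol_perm] at this
  exact mem_of_fac_smul _ this

theorem expand {n : ℕ} {ι : Type*} [Fintype ι] (e : Basis ι ℂ M)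
    (m : MultilinearMap ℂ (fun _ : Fin n => M) N) (v : Fin n → M) :
    ∑ g : Fin n → ι, (∏ j, e.coord (g j) (v j)) • m (fun j => e (g j)) = m v := by
  classical
  have : v = fun j => ∑ i, e.coord i (v j) • e i := funext fun j => by
    simpa using (e.sum_repr (v j)).symm
  conv_rhs => rw [this]
  simp only [MultilinearMap.map_sum, MultilinearMap.map_smul_univ]

theorem sum_pol_smul {n : ℕ} {ι : Type*} [Fintype ι] (e : Basis ι ℂ M) (φ : Sym[ℂ]^n M) :
    ∑ g : Fin n → ι, pol n (fun j => e.coord (g j)) φ • tp n (fun j => e (g j)) =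
      ∑ _σ : Perm (Fin n), φ := by
  have : ∑ g : Fin n → ι, (pol n (fun j => e.coord (g j))).smulRight (tp n fun j => e (g j)) =
      ∑ _σ : Perm (Fin n), LinearMap.id := sym_ext fun v => by
    simp only [LinearMap.sum_apply, LinearMap.smulRight_apply, pol_tp, sum_smul, LinearMap.id_apply]
    rw [sum_comm]
    refine sum_congr rfl fun τ _ => ?_
    rw [expand e (tp n) fun j => v (τ j), tp_perm]
  simpa only [LinearMap.sum_apply, LinearMap.smulRight_apply, LinearMap.id_apply] using
    DFunLike.congr_fun this φ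

theorem finite_sym [Module.Finite ℂ M] (n : ℕ) : Module.Finite ℂ (Sym[ℂ]^n M) := by
  classical
  let e := Module.finBasis ℂ M
  refine ⟨⟨univ.image fun g : Fin n → Fin (finrank ℂ M) => tp n fun j => e (g j), ?_⟩⟩
  rw [eq_top_iff]
  intro φ _
  refine mem_of_fac_smul (n := n) _ ?_
  rw [← sum_pol_smul e φ]
  exact Submodule.sum_mem _ fun g _ => Submodule.smul_mem _ _
    (Submodule.subset_span (by simp))

theorem eq_zero_of_pol [Module.Finite ℂ M] {n : ℕ} {φ : Sym[ℂ]^n M}
    (h : ∀ η, pol n η φ = 0) : φ = 0 := by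
  have := sum_pol_smul (Module.finBasis ℂ M) φ
  simp only [h, zero_smul, sum_const_zero] at this
  exact (Submodule.mem_bot ℂ).1 (mem_of_fac_smul (n := n) ⊥ (this ▸ Submodule.zero_mem _))

theorem span_pw [Module.Finite ℂ M] (n : ℕ) :
    Submodule.span ℂ (Set.range (pw (M := M) n)) = ⊤ := by
  let e := Module.finBasis ℂ M
  rw [eq_top_iff]
  intro f _
  refine mem_of_fac_smul (n := n) _ ?_
  have : ∑ _σ : Perm (Fin n), f = ∑ g : Fin n → Fin (finrank ℂ M),
      f (tp n fun j => e (g j)) • pol n (fun j => e.coord (g j)) := by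
    ext φ
    have := congrArg f (sum_pol_smul e φ)
    simp only [map_sum, map_smul, smul_eq_mul] at this
    simp only [LinearMap.sum_apply, LinearMap.smul_apply, smul_eq_mul, ← this, mul_comm]
  rw [this]
  exact Submodule.sum_mem _ fun g _ => Submodule.smul_mem _ _ (pol_mem_span _)

end Vale.Agent.P181
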